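import Crest.Agent.Helper31.SW3.ThreeBody
import Crest.Agent.Helper70.S0453.Final

/-!
# S0453, WP-D3 (second track): the three-body inequality (3B), hypothesis-free

`TabL3` is discharged by helper70's `table_L3'` (whose table set `tables r c` is the same
expression as `Tab3 r c`).  The two final statements (helper31):

* `threeBody_cavg` : hypothesis `h3` of helper26's `gap_pairs` at `Om = realizations d`,
  `κ = κT = offU`;
* `threeBody_Qavg` : the same in helper65's `Qavg` form.
-/

set_option autoImplicit false

namespace Crest.Agent.Helper31.SW3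

open Finset Crest.SwitchChain Crest.Agent.Helper65.Switch

variable {n : ℕ}

/-- The three-row table inequality holds for every column type (helper70's `table_L3'`). -/
theorem tabL3 (C : Type*) [Fintype C] [DecidableEq C] : TabL3 C :=
  fun r c g h0 => Crest.Agent.Helper70.S0453.table_L3' r c g h0

/-- **(3B) on `realizations d`**, in the shape of hypothesis `h3` of helper26's `gap_pairs`. -/
theorem threeBody_cavg (d : Fin n → ℕ) (a b c : Fin n) (hab : a ≠ b) (hac : a ≠ c)
    (hbc : b ≠ c) (f : Finset (Edge n) → ℝ) :
    ∑ G ∈ realizations d, f G *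
        (Crest.Agent.Helper26.SW.cavg (realizations d) (offU {a, b}) f G
          + Crest.Agent.Helper26.SW.cavg (realizations d) (offU {a, c}) f G
          + Crest.Agent.Helper26.SW.cavg (realizations d) (offU {b, c}) f G)
      ≤ 2 * ∑ G ∈ realizations d, f G ^ 2
        + ∑ G ∈ realizations d, f G *
            Crest.Agent.Helper26.SW.cavg (realizations d) (offU {a, b, c}) f G :=
  three_body_cavg (tabL3 (Option (Fin n))) d a b c hab hac hbc f

/-- **(3B) on `realizations d`**, in helper65's `Qavg` form. -/
theorem threeBody_Qavg (d : Fin n → ℕ) (a b c : Fin n) (hab : a ≠ b) (hac : a ≠ c)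
    (hbc : b ≠ c) (f : Finset (Edge n) → ℝ) :
    ∑ G ∈ realizations d, f G * (Qavg d {a, b} f G + Qavg d {a, c} f G + Qavg d {b, c} f G)
      ≤ 2 * ∑ G ∈ realizations d, f G ^ 2 + ∑ G ∈ realizations d, f G * Qavg d {a, b, c} f G :=
  three_body_Qavg (tabL3 (Option (Fin n))) d a b c hab hac hbc f

end Crest.Agent.Helper31.SW3
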