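import Crest.Agent.Helper31.SW3.Fibre
import Crest.Agent.Helper78.S0453.ClassAvg
import Crest.Agent.Helper26.SW.Keyed

/-!
# S0453, WP-D3 (second track): the three-body inequality on `realizations d`

From the three-row table inequality `TabL3 (Option (Fin n))` (= the statement of the D1t
packages, with the table set unfolded) to the three-body inequality (3B) in the shape consumed by
helper26's `gap_pairs` (hypothesis `h3`) and in helper65's `Qavg` form:

`∑ f * (Q_{ab} f + Q_{ac} f + Q_{bc} f) ≤ 2 ∑ f² + ∑ f * Q_{abc} f`  on `realizations d`.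

Route: the table inequality is transported to every fibre `cls d (tri t) G₀` along the
bijection `row t` of `Fibre.lean` (dual form, functions of the keys `offU (opp t i)`), then
helper78's abstract `primal_of_dual` and `primal_global`.  (helper31)
-/

set_option autoImplicit false

namespace Crest.Agent.Helper31.SW3

open Finset Crest.SwitchChain Crest.Agent.Helper65.Switch

variable {n : ℕ}

/-- The three-row table inequality (dual form, centred functions of the rows) for the column
type `C`. -/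
def TabL3 (C : Type*) [Fintype C] [DecidableEq C] : Prop :=
  ∀ (r : Fin 3 → ℕ) (c : C → ℕ) (g : Fin 3 → Finset C → ℝ),
    (∀ i, ∑ x ∈ Tab3 r c, g i (x i) = 0) →
    ∑ x ∈ Tab3 r c, (∑ i, g i (x i)) ^ 2 ≤ 2 * ∑ x ∈ Tab3 r c, ∑ i, (g i (x i)) ^ 2

/-- The image of the fibre under `row t` is the table class. -/
lemma image_row_cls {t : Fin 3 → Fin n} (ht : Function.Injective t) {d : Fin n → ℕ}
    {G₀ : Finset (Edge n)} (hG₀ : G₀ ∈ realizations d) :
    (cls d (tri t) G₀).image (row t) = Tab3 (rsum t G₀) (csum t G₀) := by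
  classical
  ext x
  rw [Finset.mem_image]
  constructor
  · rintro ⟨G, hG, rfl⟩
    exact row_mem_Tab3 ht hG₀ hG
  · intro hx
    obtain ⟨G, hG, hrow⟩ := exists_of_mem_Tab3 ht hG₀ hx
    exact ⟨G, hG, hrow⟩

lemma offU_eq_of_mem_cls {d : Fin n → ℕ} {U : Finset (Fin n)} {G₀ G G' : Finset (Edge n)}
    (hG : G ∈ cls d U G₀) (hG' : G' ∈ cls d U G₀) : offU U G = offU U G' := by
  rw [(mem_cls.1 hG).2, (mem_cls.1 hG').2]

/-- **The dual three-row inequality on a fibre**, for functions of the three pair keys. -/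
theorem dual_fibre (hL3 : TabL3 (Option (Fin n))) {t : Fin 3 → Fin n}
    (ht : Function.Injective t) {d : Fin n → ℕ} {G₀ : Finset (Edge n)}
    (hG₀ : G₀ ∈ realizations d) (g : Fin 3 → Finset (Edge n) → ℝ)
    (h0 : ∀ i, ∑ G ∈ cls d (tri t) G₀, g i (offU (opp t i) G) = 0) :
    ∑ G ∈ cls d (tri t) G₀, (∑ i, g i (offU (opp t i) G)) ^ 2
      ≤ 2 * ∑ i, ∑ G ∈ cls d (tri t) G₀, g i (offU (opp t i) G) ^ 2 := by
  classical
  set F := cls d (tri t) G₀ with hF
  let g' : Fin 3 → Finset (Option (Fin n)) → ℝ := fun i s =>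
    if h : ∃ G ∈ F, row t G i = s then g i (offU (opp t i) (Classical.choose h)) else 0
  have hg' : ∀ i, ∀ G ∈ F, g' i (row t G i) = g i (offU (opp t i) G) := by
    intro i G hG
    have h : ∃ G' ∈ F, row t G' i = row t G i := ⟨G, hG, rfl⟩
    simp only [g', dif_pos h]
    obtain ⟨h1, h2⟩ := Classical.choose_spec h
    rw [offU_opp_eq_of_row_eq (offU_eq_of_mem_cls h1 hG) h2]
  have hinj : ∀ G ∈ F, ∀ G' ∈ F, row t G = row t G' → G = G' :=
    fun G hG G' hG' h => eq_of_row_eq (offU_eq_of_mem_cls hG hG') h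
  have hsum : ∀ H : (Fin 3 → Finset (Option (Fin n))) → ℝ,
      ∑ x ∈ Tab3 (rsum t G₀) (csum t G₀), H x = ∑ G ∈ F, H (row t G) := by
    intro H
    rw [← image_row_cls ht hG₀, Finset.sum_image hinj]
  have h0' : ∀ i, ∑ x ∈ Tab3 (rsum t G₀) (csum t G₀), g' i (x i) = 0 := by
    intro i
    rw [hsum (fun x => g' i (x i)), ← h0 i]
    exact Finset.sum_congr rfl (fun G hG => hg' i G hG)
  have key := hL3 (rsum t G₀) (csum t G₀) g' h0'
  rw [hsum (fun x => (∑ i, g' i (x i)) ^ 2), hsum (fun x => ∑ i, (g' i (x i)) ^ 2)] at key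
  have e1 : ∑ G ∈ F, (∑ i, g' i (row t G i)) ^ 2
      = ∑ G ∈ F, (∑ i, g i (offU (opp t i) G)) ^ 2 := by
    refine Finset.sum_congr rfl (fun G hG => ?_)
    congr 1
    exact Finset.sum_congr rfl (fun i _ => hg' i G hG)
  have e2 : ∑ G ∈ F, ∑ i, (g' i (row t G i)) ^ 2
      = ∑ i, ∑ G ∈ F, g i (offU (opp t i) G) ^ 2 := by
    rw [Finset.sum_comm]
    refine Finset.sum_congr rfl (fun i _ => Finset.sum_congr rfl (fun G hG => ?_))
    rw [hg' i G hG]
  rw [e1, e2] at key
  exact key

/-- **(3B) on `realizations d`**, indexed by `t : Fin 3 → Fin n`, helper78's `cavg`. -/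
theorem three_body_t (hL3 : TabL3 (Option (Fin n))) {t : Fin 3 → Fin n}
    (ht : Function.Injective t) (d : Fin n → ℕ) (f : Finset (Edge n) → ℝ) :
    ∑ G ∈ realizations d, f G *
        ∑ i, Crest.Agent.Helper78.S0453.cavg (realizations d) (offU (opp t i)) f G
      ≤ 2 * ∑ G ∈ realizations d, f G ^ 2
        + ∑ G ∈ realizations d, f G *
            Crest.Agent.Helper78.S0453.cavg (realizations d) (offU (tri t)) f G := by
  refine Crest.Agent.Helper78.S0453.primal_global (realizations d)
    (fun i => offU (opp t i)) (offU (tri t)) ?_ ?_ f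
  · intro i G _ G' _ h
    exact offU_mono (opp_subset_tri t i) h
  · intro G₀ hG₀ f
    refine Crest.Agent.Helper78.S0453.primal_of_dual _ (fun i => offU (opp t i)) ?_ f
    intro g h0
    exact dual_fibre hL3 ht hG₀ g h0

lemma cavg78_eq_cavg26 {α β : Type*} [DecidableEq β] (S : Finset α) (κ : α → β) (f : α → ℝ)
    (x : α) :
    Crest.Agent.Helper78.S0453.cavg S κ f x = Crest.Agent.Helper26.SW.cavg S κ f x := rfl

lemma cavg26_eq_Qavg (d : Fin n → ℕ) (U : Finset (Fin n)) (f : Finset (Edge n) → ℝ)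
    (G : Finset (Edge n)) :
    Crest.Agent.Helper26.SW.cavg (realizations d) (offU U) f G = Qavg d U f G := rfl

/-- **(3B) on `realizations d`** in the shape of hypothesis `h3` of helper26's `gap_pairs`. -/
theorem three_body_cavg (hL3 : TabL3 (Option (Fin n))) (d : Fin n → ℕ) (a b c : Fin n)
    (hab : a ≠ b) (hac : a ≠ c) (hbc : b ≠ c) (f : Finset (Edge n) → ℝ) :
    ∑ G ∈ realizations d, f G *
        (Crest.Agent.Helper26.SW.cavg (realizations d) (offU {a, b}) f G
          + Crest.Agent.Helper26.SW.cavg (realizations d) (offU {a, c}) f G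
          + Crest.Agent.Helper26.SW.cavg (realizations d) (offU {b, c}) f G)
      ≤ 2 * ∑ G ∈ realizations d, f G ^ 2
        + ∑ G ∈ realizations d, f G *
            Crest.Agent.Helper26.SW.cavg (realizations d) (offU {a, b, c}) f G := by
  have ht : Function.Injective (![a, b, c] : Fin 3 → Fin n) := by
    intro i j hij
    fin_cases i <;> fin_cases j <;> first | rfl | (exfalso; simp at hij; tauto)
  have key := three_body_t hL3 ht d f
  have e0 : opp (![a, b, c] : Fin 3 → Fin n) 0 = {b, c} := rfl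
  have e1 : opp (![a, b, c] : Fin 3 → Fin n) 1 = {a, c} := by
    show ({c, a} : Finset (Fin n)) = {a, c}
    exact Finset.pair_comm c a
  have e2 : opp (![a, b, c] : Fin 3 → Fin n) 2 = {a, b} := rfl
  have e3 : tri (![a, b, c] : Fin 3 → Fin n) = {a, b, c} := rfl
  simp only [Fin.sum_univ_three, e0, e1, e2, e3, cavg78_eq_cavg26] at key
  have e4 : ∀ G, Crest.Agent.Helper26.SW.cavg (realizations d) (offU {a, b}) f G
          + Crest.Agent.Helper26.SW.cavg (realizations d) (offU {a, c}) f G
          + Crest.Agent.Helper26.SW.cavg (realizations d) (offU {b, c}) f G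
        = Crest.Agent.Helper26.SW.cavg (realizations d) (offU {b, c}) f G
          + Crest.Agent.Helper26.SW.cavg (realizations d) (offU {a, c}) f G
          + Crest.Agent.Helper26.SW.cavg (realizations d) (offU {a, b}) f G := fun G => by ring
  simp only [e4]
  exact key

/-- **(3B) on `realizations d`** in helper65's `Qavg` form. -/
theorem three_body_Qavg (hL3 : TabL3 (Option (Fin n))) (d : Fin n → ℕ) (a b c : Fin n)
    (hab : a ≠ b) (hac : a ≠ c) (hbc : b ≠ c) (f : Finset (Edge n) → ℝ) :
    ∑ G ∈ realizations d, f G * (Qavg d {a, b} f G + Qavg d {a, c} f G + Qavg d {b, c} f G)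
      ≤ 2 * ∑ G ∈ realizations d, f G ^ 2 + ∑ G ∈ realizations d, f G * Qavg d {a, b, c} f G :=
  three_body_cavg hL3 d a b c hab hac hbc f

end Crest.Agent.Helper31.SW3
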